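import Mathlib

open MeasureTheory Set
open scoped Pointwise

namespace Vale.Agent.Lib.P243

/-- Affine change of variables for the Lebesgue integral on the line. -/
lemma lintegral_affine (f : ℝ → ENNReal) (c m : ℝ) (hm : 0 < m) :
    ∫⁻ x, f x = ENNReal.ofReal m * ∫⁻ t, f (c + t * m) := by
  have h1 : ∫⁻ t, f (c + t * m) = ∫⁻ y, f (c + y) ∂(Measure.map (· * m) volume) := by
    have := lintegral_map_equiv (μ := (volume : Measure ℝ)) (fun y => f (c + y))
      (Homeomorph.mulRight₀ m hm.ne').toMeasurableEquiv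
    simpa using this.symm
  rw [h1, Real.map_volume_mul_right hm.ne', lintegral_smul_measure,
    lintegral_add_left_eq_self (μ := (volume : Measure ℝ)) f c, smul_eq_mul, ← mul_assoc,
    ← ENNReal.ofReal_mul hm.le, abs_of_pos (inv_pos.mpr hm), mul_inv_cancel₀ hm.ne']
  simp


variable {X : Type*} [NormedAddCommGroup X] [NormedSpace ℝ X]

lemma fiber_convex {A : Set (X × ℝ)} (hv : Convex ℝ A) (x : X) :
    Convex ℝ (Prod.mk x ⁻¹' A) := by
  intro y hy z hz a b ha hb hab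
  have := hv hy hz ha hb hab
  simp only [mem_preimage] at *
  convert this using 1
  ext
  · simp [← add_smul, hab]
  · simp

omit [NormedSpace ℝ X] in
lemma fiber_compact {A : Set (X × ℝ)} (hc : IsCompact A) (x : X) :
    IsCompact (Prod.mk x ⁻¹' A) := by
  have h : Prod.mk x ⁻¹' A = Prod.snd '' (A ∩ (Prod.fst ⁻¹' {x})) := by
    ext y
    constructor
    · intro hy
      exact ⟨(x, y), ⟨hy, rfl⟩, rfl⟩
    · rintro ⟨⟨x', y'⟩, ⟨h1, h2⟩, rfl⟩
      simp only [mem_preimage, mem_singleton_iff] at h2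
      subst h2
      exact h1
  rw [h]
  exact (hc.inter_right (isClosed_singleton.preimage continuous_fst)).image continuous_snd

lemma fiber_eq_Icc {A : Set (X × ℝ)} (hc : IsCompact A) (hv : Convex ℝ A) {x : X}
    (hx : (Prod.mk x ⁻¹' A).Nonempty) : ∃ a b, a ≤ b ∧ Prod.mk x ⁻¹' A = Icc a b := by
  have h1 : IsConnected (Prod.mk x ⁻¹' A) := ⟨hx, (fiber_convex hv x).isPreconnected⟩
  have h2 := eq_Icc_of_connected_compact h1 (fiber_compact hc x)
  refine ⟨_, _, ?_, h2⟩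
  obtain ⟨y, hy⟩ := hx
  rw [h2] at hy
  exact hy.1.trans hy.2

/-- one-dimensional Brunn-Minkowski for fibres of convex sets -/
lemma fiber_mix {A0 A1 C : Set (X × ℝ)} (h0c : IsCompact A0) (h0v : Convex ℝ A0)
    (h1c : IsCompact A1) (h1v : Convex ℝ A1) (hCv : Convex ℝ C) {r s : ℝ} (hr : 0 ≤ r) (hs : 0 ≤ s)
    (hmix : ∀ p ∈ A0, ∀ q ∈ A1, r • p + s • q ∈ C) {x0 x1 : X}
    (h0 : (Prod.mk x0 ⁻¹' A0).Nonempty) (h1 : (Prod.mk x1 ⁻¹' A1).Nonempty) :
    ENNReal.ofReal r * volume (Prod.mk x0 ⁻¹' A0) + ENNReal.ofReal s * volume (Prod.mk x1 ⁻¹' A1)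
      ≤ volume (Prod.mk (r • x0 + s • x1) ⁻¹' C) := by
  obtain ⟨a0, b0, hab0, e0⟩ := fiber_eq_Icc h0c h0v h0
  obtain ⟨a1, b1, hab1, e1⟩ := fiber_eq_Icc h1c h1v h1
  have hsub : Icc (r * a0 + s * a1) (r * b0 + s * b1) ⊆ Prod.mk (r • x0 + s • x1) ⁻¹' C := by
    have hA : (r * a0 + s * a1) ∈ Prod.mk (r • x0 + s • x1) ⁻¹' C := by
      have ha0 : (x0, a0) ∈ A0 := by
        have : a0 ∈ Prod.mk x0 ⁻¹' A0 := by rw [e0]; exact left_mem_Icc.mpr hab0
        exact this
      have ha1 : (x1, a1) ∈ A1 := by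
        have : a1 ∈ Prod.mk x1 ⁻¹' A1 := by rw [e1]; exact left_mem_Icc.mpr hab1
        exact this
      have := hmix _ ha0 _ ha1
      simpa using this
    have hB : (r * b0 + s * b1) ∈ Prod.mk (r • x0 + s • x1) ⁻¹' C := by
      have hb0 : (x0, b0) ∈ A0 := by
        have : b0 ∈ Prod.mk x0 ⁻¹' A0 := by rw [e0]; exact right_mem_Icc.mpr hab0
        exact this
      have hb1 : (x1, b1) ∈ A1 := by
        have : b1 ∈ Prod.mk x1 ⁻¹' A1 := by rw [e1]; exact right_mem_Icc.mpr hab1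
        exact this
      have := hmix _ hb0 _ hb1
      simpa using this
    exact (fiber_convex hCv _).ordConnected.out hA hB
  calc ENNReal.ofReal r * volume (Prod.mk x0 ⁻¹' A0) + ENNReal.ofReal s * volume (Prod.mk x1 ⁻¹' A1)
      = ENNReal.ofReal ((r * b0 + s * b1) - (r * a0 + s * a1)) := by
        rw [e0, e1, Real.volume_Icc, Real.volume_Icc, ← ENNReal.ofReal_mul hr,
          ← ENNReal.ofReal_mul hs, ← ENNReal.ofReal_add (by nlinarith) (by nlinarith)]
        congr 1; ring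
    _ = volume (Icc (r * a0 + s * a1) (r * b0 + s * b1)) := by rw [Real.volume_Icc]
    _ ≤ _ := measure_mono hsub



lemma fiber_empty_of_not_mem {A : Set (ℝ × ℝ)} {x : ℝ} (hx : x ∉ Prod.fst '' A) :
    Prod.mk x ⁻¹' A = ∅ := by
  ext y
  simp only [mem_preimage, mem_empty_iff_false, iff_false]
  intro hy
  exact hx ⟨(x, y), hy, rfl⟩

lemma fiber_nonempty_of_mem {A : Set (ℝ × ℝ)} {x : ℝ} (hx : x ∈ Prod.fst '' A) :
    (Prod.mk x ⁻¹' A).Nonempty := by
  obtain ⟨⟨x', y⟩, hy, rfl⟩ := hx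
  exact ⟨y, hy⟩

lemma bm2_linear {A0 A1 C : Set (ℝ × ℝ)} (h0c : IsCompact A0) (h0v : Convex ℝ A0)
    (h1c : IsCompact A1) (h1v : Convex ℝ A1) (hCm : MeasurableSet C) (hCv : Convex ℝ C)
    {r s : ℝ} (hr : 0 ≤ r) (hs : 0 ≤ s)
    (hmix : ∀ p ∈ A0, ∀ q ∈ A1, r • p + s • q ∈ C)
    {c0 m0 c1 m1 : ℝ} (hm0 : 0 < m0) (hm1 : 0 < m1)
    (hI0 : Prod.fst '' A0 = Icc c0 (c0 + m0)) (hI1 : Prod.fst '' A1 = Icc c1 (c1 + m1))
    (hpos : 0 < r * m0 + s * m1) :
    ENNReal.ofReal (r * m0 + s * m1) *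
      (ENNReal.ofReal (r / m0) * volume A0 + ENNReal.ofReal (s / m1) * volume A1) ≤ volume C := by
  have hA0 : volume A0 = ENNReal.ofReal m0 * ∫⁻ t, volume (Prod.mk (c0 + t * m0) ⁻¹' A0) := by
    rw [Measure.volume_eq_prod, Measure.prod_apply h0c.measurableSet]
    exact lintegral_affine _ c0 m0 hm0
  have hA1 : volume A1 = ENNReal.ofReal m1 * ∫⁻ t, volume (Prod.mk (c1 + t * m1) ⁻¹' A1) := by
    rw [Measure.volume_eq_prod, Measure.prod_apply h1c.measurableSet]
    exact lintegral_affine _ c1 m1 hm1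
  have hC : volume C = ENNReal.ofReal (r * m0 + s * m1) *
      ∫⁻ t, volume (Prod.mk ((r * c0 + s * c1) + t * (r * m0 + s * m1)) ⁻¹' C) := by
    rw [Measure.volume_eq_prod, Measure.prod_apply hCm]
    exact lintegral_affine _ _ _ hpos
  have e0 : ENNReal.ofReal (r / m0) * volume A0
      = ∫⁻ t, ENNReal.ofReal r * volume (Prod.mk (c0 + t * m0) ⁻¹' A0) := by
    rw [hA0, ← mul_assoc, ← ENNReal.ofReal_mul (by positivity), div_mul_cancel₀ _ hm0.ne',
      lintegral_const_mul']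
    exact ENNReal.ofReal_ne_top
  have e1 : ENNReal.ofReal (s / m1) * volume A1
      = ∫⁻ t, ENNReal.ofReal s * volume (Prod.mk (c1 + t * m1) ⁻¹' A1) := by
    rw [hA1, ← mul_assoc, ← ENNReal.ofReal_mul (by positivity), div_mul_cancel₀ _ hm1.ne',
      lintegral_const_mul']
    exact ENNReal.ofReal_ne_top
  have hmeas0 : Measurable fun t : ℝ => ENNReal.ofReal r * volume (Prod.mk (c0 + t * m0) ⁻¹' A0) := by
    have := measurable_measure_prodMk_left (ν := (volume : Measure ℝ)) h0c.measurableSet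
    exact (this.comp (by fun_prop : Measurable fun t : ℝ => c0 + t * m0)).const_mul _
  rw [e0, e1, ← lintegral_add_left hmeas0, hC]
  gcongr with t
  by_cases ht : t ∈ Icc (0:ℝ) 1
  · have h0 : (Prod.mk (c0 + t * m0) ⁻¹' A0).Nonempty := by
      apply fiber_nonempty_of_mem
      rw [hI0]
      constructor <;> nlinarith [ht.1, ht.2]
    have h1 : (Prod.mk (c1 + t * m1) ⁻¹' A1).Nonempty := by
      apply fiber_nonempty_of_mem
      rw [hI1]
      constructor <;> nlinarith [ht.1, ht.2]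
    have := fiber_mix h0c h0v h1c h1v hCv hr hs hmix h0 h1
    convert this using 3
    simp only [smul_eq_mul]
    ring_nf
  · have h0 : Prod.mk (c0 + t * m0) ⁻¹' A0 = ∅ := by
      apply fiber_empty_of_not_mem
      rw [hI0]
      intro h
      apply ht
      constructor
      · have := h.1
        by_contra hneg
        rw [not_le] at hneg
        nlinarith
      · have := h.2
        by_contra hneg
        rw [not_le] at hneg
        nlinarith
    have h1 : Prod.mk (c1 + t * m1) ⁻¹' A1 = ∅ := by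
      apply fiber_empty_of_not_mem
      rw [hI1]
      intro h
      apply ht
      constructor
      · have := h.1
        by_contra hneg
        rw [not_le] at hneg
        nlinarith
      · have := h.2
        by_contra hneg
        rw [not_le] at hneg
        nlinarith
    rw [h0, h1]
    simp



lemma vol_homothety_le {A1 C : Set (ℝ × ℝ)} {s : ℝ} (v : ℝ × ℝ)
    (h : ∀ q ∈ A1, v + s • q ∈ C) :
    ENNReal.ofReal (s ^ 2) * volume A1 ≤ volume C := by
  have hsub : (v + ·) '' (s • A1) ⊆ C := by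
    rintro _ ⟨_, ⟨q, hq, rfl⟩, rfl⟩
    exact h q hq
  calc ENNReal.ofReal (s ^ 2) * volume A1 = volume (s • A1) := by
        rw [Measure.addHaar_smul]
        simp [abs_of_nonneg (sq_nonneg s)]
    _ = volume ((v + ·) '' (s • A1)) := by
        rw [Set.image_add_left, measure_preimage_add]
    _ ≤ volume C := measure_mono hsub

lemma real_cs {r s m0 m1 a0 a1 : ℝ} (hr : 0 ≤ r) (hs : 0 ≤ s) (hm0 : 0 < m0) (hm1 : 0 < m1)
    (ha0 : 0 ≤ a0) (ha1 : 0 ≤ a1) :
    (r * √a0 + s * √a1) ^ 2 ≤ (r * m0 + s * m1) * (r / m0 * a0 + s / m1 * a1) := by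
  obtain ⟨p, hp, rfl⟩ : ∃ p, 0 ≤ p ∧ a0 = p ^ 2 := ⟨√a0, Real.sqrt_nonneg _, (Real.sq_sqrt ha0).symm⟩
  obtain ⟨q, hq, rfl⟩ : ∃ q, 0 ≤ q ∧ a1 = q ^ 2 := ⟨√a1, Real.sqrt_nonneg _, (Real.sq_sqrt ha1).symm⟩
  rw [Real.sqrt_sq hp, Real.sqrt_sq hq]
  have key : 2 * p * q ≤ m0 * q ^ 2 / m1 + m1 * p ^ 2 / m0 := by
    rw [div_add_div _ _ hm1.ne' hm0.ne', le_div_iff₀ (by positivity)]
    nlinarith [sq_nonneg (m0 * q - m1 * p)]
  have e : (r * m0 + s * m1) * (r / m0 * p ^ 2 + s / m1 * q ^ 2)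
      = r ^ 2 * p ^ 2 + s ^ 2 * q ^ 2 + r * s * (m0 * q ^ 2 / m1 + m1 * p ^ 2 / m0) := by
    field_simp
    ring
  rw [e]
  nlinarith [mul_le_mul_of_nonneg_left key (mul_nonneg hr hs)]

lemma proj_eq_Icc {A : Set (ℝ × ℝ)} (hc : IsCompact A) (hv : Convex ℝ A) (hn : A.Nonempty) :
    ∃ c d, c ≤ d ∧ Prod.fst '' A = Icc c d := by
  have h1 : IsConnected (Prod.fst '' A) :=
    ⟨hn.image _, (hv.linear_image (LinearMap.fst ℝ ℝ ℝ)).isPreconnected⟩
  have h2 := eq_Icc_of_connected_compact h1 (hc.image continuous_fst)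
  refine ⟨_, _, ?_, h2⟩
  obtain ⟨y, hy⟩ := hn.image Prod.fst
  rw [h2] at hy
  exact hy.1.trans hy.2

lemma vol_zero_of_proj {A : Set (ℝ × ℝ)} {c : ℝ} (h : Prod.fst '' A ⊆ {c}) : volume A = 0 := by
  have hsub : A ⊆ ({c} : Set ℝ) ×ˢ (univ : Set ℝ) := by
    intro p hp
    exact ⟨h ⟨p, hp, rfl⟩, mem_univ _⟩
  apply measure_mono_null hsub
  rw [Measure.volume_eq_prod, Measure.prod_prod]
  simp



lemma bm2_degenerate {A1 C : Set (ℝ × ℝ)} (hCc : IsCompact C) {s : ℝ} (hs : 0 ≤ s) (v : ℝ × ℝ)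
    (h : ∀ q ∈ A1, v + s • q ∈ C) :
    s * √(volume A1).toReal ≤ √(volume C).toReal := by
  have h1 := vol_homothety_le v h
  have h2 := ENNReal.toReal_mono hCc.measure_lt_top.ne h1
  rw [ENNReal.toReal_mul, ENNReal.toReal_ofReal (sq_nonneg s)] at h2
  calc s * √(volume A1).toReal = √(s ^ 2 * (volume A1).toReal) := by
        rw [Real.sqrt_mul (sq_nonneg s), Real.sqrt_sq hs]
    _ ≤ _ := Real.sqrt_le_sqrt h2

/-- Brunn-Minkowski inequality for compact convex sets in the plane. -/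
theorem bm2 {A0 A1 C : Set (ℝ × ℝ)} (h0c : IsCompact A0) (h0v : Convex ℝ A0) (h0n : A0.Nonempty)
    (h1c : IsCompact A1) (h1v : Convex ℝ A1) (h1n : A1.Nonempty)
    (hCc : IsCompact C) (hCv : Convex ℝ C)
    {r s : ℝ} (hr : 0 ≤ r) (hs : 0 ≤ s)
    (hmix : ∀ p ∈ A0, ∀ q ∈ A1, r • p + s • q ∈ C) :
    r * √(volume A0).toReal + s * √(volume A1).toReal ≤ √(volume C).toReal := by
  by_cases z0 : volume A0 = 0
  · obtain ⟨p0, hp0⟩ := h0n
    rw [z0]
    simpa using bm2_degenerate hCc hs (r • p0) (fun q hq => hmix p0 hp0 q hq)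
  by_cases z1 : volume A1 = 0
  · obtain ⟨q0, hq0⟩ := h1n
    rw [z1]
    simpa using bm2_degenerate hCc hr (s • q0)
      (fun p hp => by rw [add_comm]; exact hmix p hp q0 hq0)
  obtain ⟨c0, d0, hcd0, hI0⟩ := proj_eq_Icc h0c h0v h0n
  obtain ⟨c1, d1, hcd1, hI1⟩ := proj_eq_Icc h1c h1v h1n
  have hlt0 : c0 < d0 := by
    rcases hcd0.lt_or_eq with h | h
    · exact h
    · exfalso
      apply z0
      apply vol_zero_of_proj (c := c0)
      rw [hI0, ← h]
      simp
  have hlt1 : c1 < d1 := by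
    rcases hcd1.lt_or_eq with h | h
    · exact h
    · exfalso
      apply z1
      apply vol_zero_of_proj (c := c1)
      rw [hI1, ← h]
      simp
  have hm0 : 0 < d0 - c0 := sub_pos.mpr hlt0
  have hm1 : 0 < d1 - c1 := sub_pos.mpr hlt1
  by_cases hpos : 0 < r * (d0 - c0) + s * (d1 - c1)
  · have hI0' : Prod.fst '' A0 = Icc c0 (c0 + (d0 - c0)) := by rw [hI0]; congr 1; ring
    have hI1' : Prod.fst '' A1 = Icc c1 (c1 + (d1 - c1)) := by rw [hI1]; congr 1; ring
    have h1 := bm2_linear h0c h0v h1c h1v hCc.measurableSet hCv hr hs hmix hm0 hm1 hI0' hI1' hpos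
    have h2 := ENNReal.toReal_mono hCc.measure_lt_top.ne h1
    have f0 : volume A0 ≠ ⊤ := h0c.measure_lt_top.ne
    have f1 : volume A1 ≠ ⊤ := h1c.measure_lt_top.ne
    rw [ENNReal.toReal_mul, ENNReal.toReal_add (ENNReal.mul_ne_top ENNReal.ofReal_ne_top f0)
      (ENNReal.mul_ne_top ENNReal.ofReal_ne_top f1), ENNReal.toReal_mul, ENNReal.toReal_mul,
      ENNReal.toReal_ofReal hpos.le, ENNReal.toReal_ofReal (by positivity),
      ENNReal.toReal_ofReal (by positivity)] at h2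
    have h3 := real_cs hr hs hm0 hm1 (ENNReal.toReal_nonneg (a := volume A0))
      (ENNReal.toReal_nonneg (a := volume A1))
    apply Real.le_sqrt_of_sq_le
    exact h3.trans h2
  · have hr0 : r = 0 := by
      by_contra hne
      have : 0 < r := lt_of_le_of_ne hr (Ne.symm hne)
      apply hpos
      have := mul_pos this hm0
      have := mul_nonneg hs hm1.le
      linarith
    have hs0 : s = 0 := by
      by_contra hne
      have : 0 < s := lt_of_le_of_ne hs (Ne.symm hne)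
      apply hpos
      have := mul_pos this hm1
      have := mul_nonneg hr hm0.le
      linarith
    rw [hr0, hs0]
    simp


end Vale.Agent.Lib.P243
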