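import Mathlib

open MeasureTheory Set

namespace Vale.Agent.Lib.P243

lemma integral_q (A T a b : ℝ) (hT : T ≠ 0) :
    ∫ t in a..b, A * (1 - t / T) ^ 2 = (A * T / 3) * ((1 - a / T) ^ 3 - (1 - b / T) ^ 3) := by
  have hderiv : ∀ t ∈ uIcc a b, HasDerivAt (fun t => -(A * T / 3) * (1 - t / T) ^ 3)
      (A * (1 - t / T) ^ 2) t := by
    intro t _
    have h1 : HasDerivAt (fun t : ℝ => 1 - t / T) (-(1 / T)) t := by
      have := ((hasDerivAt_id t).div_const T).const_sub 1
      simpa using this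
    have h2 := (h1.pow 3).const_mul (-(A * T / 3))
    have e : A * (1 - t / T) ^ 2 = -(A * T / 3) * (((3:ℕ):ℝ) * (1 - t / T) ^ (3 - 1) * -(1 / T)) := by
      have : (3 - 1 : ℕ) = 2 := rfl
      rw [this]
      push_cast
      field_simp
    rw [e]
    exact h2
  rw [intervalIntegral.integral_eq_sub_of_hasDerivAt hderiv]
  · ring
  · apply Continuous.intervalIntegrable
    fun_prop

lemma lintegral_q (A T a b : ℝ) (hA : 0 ≤ A) (hT : T ≠ 0) (hab : a ≤ b) :
    ∫⁻ t in Ioc a b, ENNReal.ofReal (A * (1 - t / T) ^ 2)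
      = ENNReal.ofReal ((A * T / 3) * ((1 - a / T) ^ 3 - (1 - b / T) ^ 3)) := by
  rw [← integral_q A T a b hT, intervalIntegral.integral_of_le hab,
    ofReal_integral_eq_lintegral_ofReal]
  · have : IntervalIntegrable (fun t => A * (1 - t / T) ^ 2) volume a b := by
      apply Continuous.intervalIntegrable
      fun_prop
    exact (intervalIntegrable_iff_integrableOn_Ioc_of_le hab).mp this
  · exact Filter.Eventually.of_forall (fun t => by positivity)


lemma single_crossing (F : ℝ → ℝ) (N : Set ℝ) (hF0 : ∀ t, 0 ≤ F t)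
    (hN : ∀ t, t ∉ N → F t = 0)
    (hconc : ∀ t ∈ N, 0 < t → ∀ θ ∈ Icc (0:ℝ) 1,
      (1 - θ) * √(F 0) + θ * √(F t) ≤ √(F (θ * t)))
    {V : ℝ} (hV : 0 < V) (hA : 0 < F 0)
    (hint : ∫⁻ t in Ioi 0, ENNReal.ofReal (F t) = ENNReal.ofReal V)
    {σ : ℝ} (hσ : σ ∈ Icc (0:ℝ) 1) :
    ∫⁻ t in Ioi (3 * (1 - σ) * V / F 0), ENNReal.ofReal (F t) ≤ ENNReal.ofReal (σ ^ 3 * V) := by
  obtain ⟨hσ0, hσ1⟩ := hσ
  set A := F 0 with hAdef
  set T := 3 * V / A with hTdef
  have hT : 0 < T := by positivity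
  set τ := 3 * (1 - σ) * V / A with hτdef
  have hτT : τ = (1 - σ) * T := by rw [hτdef, hTdef]; ring
  have hτ0 : 0 ≤ τ := by rw [hτT]; exact mul_nonneg (by linarith) hT.le
  have hτleT : τ ≤ T := by rw [hτT]; nlinarith
  have h1τ : 1 - τ / T = σ := by rw [hτT]; field_simp; ring
  have hAT : A * T / 3 = V := by rw [hTdef]; field_simp
  have hsA : 0 < √A := Real.sqrt_pos.mpr hA
  rcases hτ0.eq_or_lt with hτz | hτpos
  · -- τ = 0, so σ = 1
    have hσ : σ = 1 := by
      have : (1 - σ) * T = 0 := by rw [← hτT, ← hτz]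
      rcases mul_eq_zero.mp this with h | h
      · linarith
      · exact absurd h hT.ne'
    rw [← hτz, hint, hσ]
    simp
  by_cases hcase : τ ∈ N ∧ √A * σ ≤ √(F τ)
  · -- Case A
    obtain ⟨hτN, hL⟩ := hcase
    have hlow : ∀ t ∈ Ioc 0 τ, A * (1 - t / T) ^ 2 ≤ F t := by
      intro t ht
      have hθ : t / τ ∈ Icc (0:ℝ) 1 := ⟨by have := ht.1; positivity, (div_le_one hτpos).mpr ht.2⟩
      have h := hconc τ hτN hτpos (t / τ) hθ
      rw [div_mul_cancel₀ _ hτpos.ne'] at h
      have h2 : √A * (1 - t / T) ≤ √(F t) := by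
        have e : √A * (1 - t / T) = (1 - t / τ) * √A + t / τ * (√A * σ) := by
          rw [← h1τ]; field_simp; ring
        rw [e]
        have := mul_le_mul_of_nonneg_left hL hθ.1
        linarith
      have h3 : 0 ≤ 1 - t / T := by
        have : t / T ≤ 1 := (div_le_one hT).mpr (ht.2.trans hτleT)
        linarith
      calc A * (1 - t / T) ^ 2 = (√A * (1 - t / T)) ^ 2 := by
            rw [mul_pow, Real.sq_sqrt hA.le]
        _ ≤ (√(F t)) ^ 2 := by
            apply pow_le_pow_left₀ (mul_nonneg hsA.le h3) h2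
        _ = F t := Real.sq_sqrt (hF0 t)
    have hI1 : ENNReal.ofReal (V * (1 - σ ^ 3)) ≤ ∫⁻ t in Ioc 0 τ, ENNReal.ofReal (F t) := by
      have := lintegral_q A T 0 τ hA.le hT.ne' hτ0
      rw [hAT, h1τ] at this
      simp only [zero_div, sub_zero, one_pow] at this
      rw [← this]
      apply setLIntegral_mono' measurableSet_Ioc
      intro t ht
      exact ENNReal.ofReal_le_ofReal (hlow t ht)
    have hsplit : ∫⁻ t in Ioi 0, ENNReal.ofReal (F t)
        = (∫⁻ t in Ioc 0 τ, ENNReal.ofReal (F t)) + ∫⁻ t in Ioi τ, ENNReal.ofReal (F t) := by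
      rw [← Ioc_union_Ioi_eq_Ioi hτ0, lintegral_union measurableSet_Ioi]
      exact Set.disjoint_left.mpr (fun t h1 h2 => not_lt.mpr h1.2 h2)
    rw [hint] at hsplit
    have hV2 : ENNReal.ofReal V = ENNReal.ofReal (V * (1 - σ ^ 3)) + ENNReal.ofReal (σ ^ 3 * V) := by
      rw [← ENNReal.ofReal_add]
      · congr 1; ring
      · apply mul_nonneg hV.le
        have : σ ^ 3 ≤ 1 := pow_le_one₀ hσ0 hσ1
        linarith
      · positivity
    have h5 : ENNReal.ofReal (V * (1 - σ ^ 3)) + ∫⁻ t in Ioi τ, ENNReal.ofReal (F t)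
        ≤ ENNReal.ofReal (V * (1 - σ ^ 3)) + ENNReal.ofReal (σ ^ 3 * V) := by
      rw [← hV2, hsplit]
      gcongr
    exact (ENNReal.add_le_add_iff_left ENNReal.ofReal_ne_top).mp h5
  · -- Case B
    have hup : ∀ t ∈ Ioi τ, t ∈ N → √(F t) < √A * (1 - t / T) := by
      intro t ht htN
      have ht' : τ < t := ht
      have htpos : 0 < t := hτpos.trans ht'
      have hθ : τ / t ∈ Icc (0:ℝ) 1 := ⟨by positivity, (div_le_one htpos).mpr ht'.le⟩
      have h := hconc t htN htpos (τ / t) hθ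
      rw [div_mul_cancel₀ _ htpos.ne'] at h
      have hθlt : τ / t < 1 := (div_lt_one htpos).mpr ht'
      have hFτ : √(F τ) < √A * σ := by
        by_cases hτN : τ ∈ N
        · by_contra hcon
          exact hcase ⟨hτN, not_lt.mp hcon⟩
        · exfalso
          rw [hN τ hτN, Real.sqrt_zero] at h
          have h1 : 0 < (1 - τ / t) * √A := mul_pos (by linarith) hsA
          have h2 : 0 ≤ τ / t * √(F t) := mul_nonneg hθ.1 (Real.sqrt_nonneg _)
          linarith
      have h6 : τ / t * √(F t) < τ / t * (√A * (1 - t / T)) := by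
        have e : τ / t * (√A * (1 - t / T)) = √A * σ - (1 - τ / t) * √A := by
          rw [← h1τ]; field_simp; ring
        rw [e]
        linarith
      exact lt_of_mul_lt_mul_left h6 hθ.1
    have hsplit : ∫⁻ t in Ioi τ, ENNReal.ofReal (F t)
        = (∫⁻ t in Ioc τ T, ENNReal.ofReal (F t)) + ∫⁻ t in Ioi T, ENNReal.ofReal (F t) := by
      rw [← Ioc_union_Ioi_eq_Ioi hτleT, lintegral_union measurableSet_Ioi]
      exact Set.disjoint_left.mpr (fun t h1 h2 => not_lt.mpr h1.2 h2)
    have hz : ∫⁻ t in Ioi T, ENNReal.ofReal (F t) = 0 := by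
      rw [setLIntegral_congr_fun (g := fun _ => 0) measurableSet_Ioi]
      · simp
      · intro t ht
        have ht' : T < t := ht
        by_cases htN : t ∈ N
        · exfalso
          have h := hup t (lt_of_le_of_lt hτleT ht') htN
          have h1 : 1 - t / T < 0 := by
            have : 1 < t / T := (one_lt_div hT).mpr ht'
            linarith
          have h2 : √A * (1 - t / T) < 0 := mul_neg_of_pos_of_neg hsA h1
          have := Real.sqrt_nonneg (F t)
          linarith
        · simp [hN t htN]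
    have hI : ∫⁻ t in Ioc τ T, ENNReal.ofReal (F t) ≤ ENNReal.ofReal (σ ^ 3 * V) := by
      have := lintegral_q A T τ T hA.le hT.ne' hτleT
      rw [hAT, h1τ, div_self hT.ne'] at this
      have e : V * (σ ^ 3 - (1 - 1) ^ 3) = σ ^ 3 * V := by ring
      rw [e] at this
      rw [← this]
      apply setLIntegral_mono' measurableSet_Ioc
      intro t ht
      apply ENNReal.ofReal_le_ofReal
      by_cases htN : t ∈ N
      · have h := hup t ht.1 htN
        calc F t = (√(F t)) ^ 2 := (Real.sq_sqrt (hF0 t)).symm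
          _ ≤ (√A * (1 - t / T)) ^ 2 := pow_le_pow_left₀ (Real.sqrt_nonneg _) h.le 2
          _ = A * (1 - t / T) ^ 2 := by rw [mul_pow, Real.sq_sqrt hA.le]
      · rw [hN t htN]
        positivity
    rw [hsplit, hz, add_zero]
    exact hI


end Vale.Agent.Lib.P243
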