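import Vale.Agent.Lib.P243.BM2
import Vale.Agent.Lib.P243.Crossing

open MeasureTheory Set

namespace Vale.Agent.Lib.P243

/-- points of the plane over which the vertical chord of `K` has length at least `t` -/
def sect (K : Set ((ℝ × ℝ) × ℝ)) (t : ℝ) : Set (ℝ × ℝ) :=
  Prod.fst '' (K ∩ {p | (p.1, p.2 + t) ∈ K})

lemma sect_zero (K : Set ((ℝ × ℝ) × ℝ)) : sect K 0 = Prod.fst '' K := by
  unfold sect
  congr 1
  ext p
  simp

lemma sect_compact {K : Set ((ℝ × ℝ) × ℝ)} (hc : IsCompact K) (t : ℝ) : IsCompact (sect K t) := by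
  apply IsCompact.image _ continuous_fst
  apply hc.inter_right
  exact hc.isClosed.preimage (by fun_prop : Continuous fun p : (ℝ × ℝ) × ℝ => (p.1, p.2 + t))

lemma sect_mix {K : Set ((ℝ × ℝ) × ℝ)} (hv : Convex ℝ K) {t0 t1 r s : ℝ} (hr : 0 ≤ r) (hs : 0 ≤ s)
    (hrs : r + s = 1) {p q : ℝ × ℝ} (hp : p ∈ sect K t0) (hq : q ∈ sect K t1) :
    r • p + s • q ∈ sect K (r * t0 + s * t1) := by
  obtain ⟨⟨p', h⟩, ⟨hp1, hp2⟩, rfl⟩ := hp
  obtain ⟨⟨q', k⟩, ⟨hq1, hq2⟩, rfl⟩ := hq
  refine ⟨(r • p' + s • q', r * h + s * k), ⟨?_, ?_⟩, rfl⟩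
  · have := hv hp1 hq1 hr hs hrs
    simpa using this
  · have := hv hp2 hq2 hr hs hrs
    simp only [mem_ofPred_eq] at *
    convert this using 1
    ext <;> simp
    ring

lemma sect_convex {K : Set ((ℝ × ℝ) × ℝ)} (hv : Convex ℝ K) (t : ℝ) : Convex ℝ (sect K t) := by
  intro p hp q hq r s hr hs hrs
  have := sect_mix hv hr hs hrs hp hq
  rwa [← add_mul, hrs, one_mul] at this

lemma level_eq_sect {K : Set ((ℝ × ℝ) × ℝ)} (hc : IsCompact K) (hv : Convex ℝ K) {t : ℝ}
    (ht : 0 < t) : {x | t ≤ (volume (Prod.mk x ⁻¹' K)).toReal} = sect K t := by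
  ext x
  simp only [mem_ofPred_eq]
  constructor
  · intro h
    have hne : (Prod.mk x ⁻¹' K).Nonempty := by
      by_contra hcon
      rw [not_nonempty_iff_eq_empty] at hcon
      rw [hcon] at h
      simp at h
      linarith
    obtain ⟨a, b, hab, e⟩ := fiber_eq_Icc hc hv hne
    rw [e, Real.volume_Icc, ENNReal.toReal_ofReal (by linarith)] at h
    have ha : a ∈ Prod.mk x ⁻¹' K := by rw [e]; exact ⟨le_refl _, hab⟩
    have hat : a + t ∈ Prod.mk x ⁻¹' K := by rw [e]; exact ⟨by linarith, by linarith⟩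
    exact ⟨(x, a), ⟨ha, hat⟩, rfl⟩
  · rintro ⟨⟨x', h⟩, ⟨h1, h2⟩, rfl⟩
    have hne : (Prod.mk x' ⁻¹' K).Nonempty := ⟨h, h1⟩
    obtain ⟨a, b, hab, e⟩ := fiber_eq_Icc hc hv hne
    have m1 : h ∈ Icc a b := by rw [← e]; exact h1
    have m2 : h + t ∈ Icc a b := by rw [← e]; exact h2
    simp only
    rw [e, Real.volume_Icc, ENNReal.toReal_ofReal (by linarith)]
    linarith [m1.1, m2.2]

lemma vol_inter_cyl {K : Set ((ℝ × ℝ) × ℝ)} (hc : IsCompact K) (hv : Convex ℝ K)
    {B : Set (ℝ × ℝ)} (hB : MeasurableSet B) :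
    volume (K ∩ Prod.fst ⁻¹' B) = ∫⁻ t in Ioi 0, volume (sect K t ∩ B) := by
  have h1 : volume (K ∩ Prod.fst ⁻¹' B) = ∫⁻ x in B, volume (Prod.mk x ⁻¹' K) := by
    rw [Measure.volume_eq_prod, Measure.prod_apply (hc.measurableSet.inter (measurable_fst hB)),
      ← lintegral_indicator hB]
    congr 1
    ext x
    by_cases hx : x ∈ B
    · rw [indicator_of_mem hx]
      congr 1
      ext y
      simp [hx]
    · rw [indicator_of_notMem hx]
      have : Prod.mk x ⁻¹' (K ∩ Prod.fst ⁻¹' B) = ∅ := by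
        ext y
        simp [hx]
      rw [this]
      simp
  have hmeas : Measurable fun x : ℝ × ℝ => (volume (Prod.mk x ⁻¹' K)).toReal :=
    (measurable_measure_prodMk_left (ν := (volume : Measure ℝ)) hc.measurableSet).ennreal_toReal
  have h2 := lintegral_eq_lintegral_meas_le (volume.restrict B)
    (f := fun x : ℝ × ℝ => (volume (Prod.mk x ⁻¹' K)).toReal)
    (Filter.Eventually.of_forall fun x => ENNReal.toReal_nonneg) hmeas.aemeasurable
  rw [h1]
  have h3 : ∀ x : ℝ × ℝ, ENNReal.ofReal (volume (Prod.mk x ⁻¹' K)).toReal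
      = volume (Prod.mk x ⁻¹' K) := fun x =>
    ENNReal.ofReal_toReal (fiber_compact hc x).measure_lt_top.ne
  simp only [h3] at h2
  rw [h2]
  apply setLIntegral_congr_fun measurableSet_Ioi
  intro t ht
  simp only
  rw [level_eq_sect hc hv ht, Measure.restrict_apply' hB]


theorem core {K : Set ((ℝ × ℝ) × ℝ)} (hc : IsCompact K) (hv : Convex ℝ K)
    (hA : 0 < (volume (Prod.fst '' K)).toReal) (hV : 0 < (volume K).toReal)
    {B : Set (ℝ × ℝ)} (hB : MeasurableSet B) {σ : ℝ} (hσ : σ ∈ Icc (0:ℝ) 1) :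
    volume (K ∩ Prod.fst ⁻¹' B) ≤
      ENNReal.ofReal (3 * (1 - σ) * (volume K).toReal / (volume (Prod.fst '' K)).toReal) * volume B
        + ENNReal.ofReal (σ ^ 3 * (volume K).toReal) := by
  set V := (volume K).toReal with hVdef
  set A := (volume (Prod.fst '' K)).toReal with hAdef
  set τ := 3 * (1 - σ) * V / A with hτdef
  have hτ0 : 0 ≤ τ := by
    have := hσ.2
    have : 0 ≤ 1 - σ := by linarith
    positivity
  have hKne : K.Nonempty := by
    by_contra hcon
    rw [not_nonempty_iff_eq_empty] at hcon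
    rw [hVdef, hcon] at hV
    simp at hV
  let F : ℝ → ℝ := fun t => (volume (sect K t)).toReal
  have hFfin : ∀ t, ENNReal.ofReal (F t) = volume (sect K t) := fun t =>
    ENNReal.ofReal_toReal (sect_compact hc t).measure_lt_top.ne
  have hF00 : F 0 = A := by
    simp only [F]
    rw [sect_zero]
  have hint : ∫⁻ t in Ioi 0, ENNReal.ofReal (F t) = ENNReal.ofReal V := by
    have := vol_inter_cyl hc hv (B := univ) MeasurableSet.univ
    simp only [preimage_univ, inter_univ] at this
    simp only [hFfin]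
    rw [← this, hVdef, ENNReal.ofReal_toReal hc.measure_lt_top.ne]
  have hcross := single_crossing F {t | (sect K t).Nonempty} (fun t => ENNReal.toReal_nonneg)
    (by
      intro t ht
      simp only [mem_ofPred_eq, not_nonempty_iff_eq_empty] at ht
      simp only [F]
      rw [ht]
      simp)
    (by
      intro t ht htpos θ hθ
      have h0n : (sect K 0).Nonempty := by
        rw [sect_zero]
        exact hKne.image _
      have := bm2 (sect_compact hc 0) (sect_convex hv 0) h0n (sect_compact hc t) (sect_convex hv t) ht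
        (sect_compact hc (θ * t)) (sect_convex hv (θ * t)) (r := 1 - θ) (s := θ)
        (by linarith [hθ.2]) hθ.1
        (by
          intro p hp q hq
          have := sect_mix hv (r := 1 - θ) (s := θ) (by linarith [hθ.2]) hθ.1 (by ring) hp hq
          simpa using this)
      exact this)
    hV (by rw [hF00]; exact hA) hint hσ
  rw [hF00] at hcross
  simp only [hFfin] at hcross
  rw [vol_inter_cyl hc hv hB, ← Ioc_union_Ioi_eq_Ioi hτ0, lintegral_union measurableSet_Ioi
    (Set.disjoint_left.mpr (fun t h1 h2 => not_lt.mpr h1.2 h2))]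
  apply add_le_add
  · calc ∫⁻ t in Ioc 0 τ, volume (sect K t ∩ B) ≤ ∫⁻ _ in Ioc 0 τ, volume B := by
          apply lintegral_mono
          intro t
          exact measure_mono inter_subset_right
      _ = ENNReal.ofReal τ * volume B := by
          rw [setLIntegral_const, Real.volume_Ioc, sub_zero, mul_comm]
  · calc ∫⁻ t in Ioi τ, volume (sect K t ∩ B) ≤ ∫⁻ t in Ioi τ, volume (sect K t) := by
          apply lintegral_mono
          intro t
          exact measure_mono inter_subset_left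
      _ ≤ _ := hcross


end Vale.Agent.Lib.P243
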