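import Vale.Agent.Lib.P243.Frame

open MeasureTheory Set

namespace Vale.Agent.Lib.P243

lemma ennreal_solve {a c : ℝ} {x : ENNReal} (ha : 0 ≤ a) (hc : 0 < c)
    (h : 1 ≤ ENNReal.ofReal a + ENNReal.ofReal c * x) : ENNReal.ofReal ((1 - a) / c) ≤ x := by
  by_cases hx : x = ⊤
  · rw [hx]; exact le_top
  · have hx' : x = ENNReal.ofReal x.toReal := (ENNReal.ofReal_toReal hx).symm
    rw [hx'] at h ⊢
    rw [← ENNReal.ofReal_mul hc.le, ← ENNReal.ofReal_add ha (by positivity),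
      ENNReal.one_le_ofReal] at h
    apply ENNReal.ofReal_le_ofReal
    rw [div_le_iff₀ hc]
    linarith

lemma cyl_subset_fr {e₁ e₂ u : E3} (ho : Orthonormal ℝ ![e₁, e₂, u]) (B : Set (ℝ × ℝ)) :
    {p : E3 | ∃ x ∈ B, ∃ s : ℝ, p = x.1 • e₁ + x.2 • e₂ + s • u}
      ⊆ {p | frProj e₁ e₂ p ∈ B} := by
  rintro p ⟨x, hx, s, rfl⟩
  simp only [mem_ofPred_eq]
  have := frProj_equiv ho (x, s)
  rw [frEquiv_apply, frMap_apply] at this
  simp only at this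
  rw [this]
  exact hx

theorem cover_bound_fr {K : Set E3} (hc : IsCompact K) (hv : Convex ℝ K)
    (hi : (interior K).Nonempty)
    {d : ℕ} (e₁ e₂ u : Fin d → E3) (ho : ∀ j, Orthonormal ℝ ![e₁ j, e₂ j, u j])
    (B : Fin d → Set (ℝ × ℝ)) (hB : ∀ j, MeasurableSet (B j))
    (hcov : K ⊆ ⋃ j, {p | frProj (e₁ j) (e₂ j) p ∈ B j}) {σ : ℝ}
    (hσ : σ ∈ Icc (0:ℝ) 1) :
    1 ≤ ENNReal.ofReal (d * σ ^ 3) + ENNReal.ofReal (3 * (1 - σ)) *
      ∑ j, volume (B j) / volume (frProj (e₁ j) (e₂ j) '' K) := by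
  have hVpos : 0 < volume K := Measure.measure_pos_of_nonempty_interior _ hi
  have h1 : volume K ≤ ∑ j, volume (K ∩ {p | frProj (e₁ j) (e₂ j) p ∈ B j}) := by
    calc volume K ≤ volume (⋃ j, K ∩ {p | frProj (e₁ j) (e₂ j) p ∈ B j}) := by
          apply measure_mono
          rw [← inter_iUnion]
          exact subset_inter (le_refl _) hcov
      _ ≤ ∑ j, volume (K ∩ {p | frProj (e₁ j) (e₂ j) p ∈ B j}) :=
          measure_iUnion_fintype_le _ _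
  have h2 : volume K * 1 ≤ volume K * (ENNReal.ofReal (d * σ ^ 3) + ENNReal.ofReal (3 * (1 - σ)) *
      ∑ j, volume (B j) / volume (frProj (e₁ j) (e₂ j) '' K)) := by
    rw [mul_one]
    refine h1.trans ((Finset.sum_le_sum fun j _ => cyl_bound_fr hc hv hi (ho j) (hB j) hσ).trans
      (le_of_eq ?_))
    rw [← Finset.mul_sum, Finset.sum_add_distrib, ← Finset.mul_sum]
    congr 2
    rw [Finset.sum_const, Finset.card_univ, Fintype.card_fin, nsmul_eq_mul,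
      ENNReal.ofReal_mul (by positivity), ENNReal.ofReal_natCast]
  exact (ENNReal.mul_le_mul_iff_right hVpos.ne' hc.measure_lt_top.ne).mp h2

theorem few_dir_fr {K : Set E3} (hc : IsCompact K) (hv : Convex ℝ K) (hi : (interior K).Nonempty)
    {d : ℕ} (e₁ e₂ u : Fin d → E3) (ho : ∀ j, Orthonormal ℝ ![e₁ j, e₂ j, u j]) (n : Fin d → ℕ)
    (B : ∀ j, Fin (n j) → Set (ℝ × ℝ)) (hB : ∀ j k, MeasurableSet (B j k))
    (hcov : K ⊆ ⋃ j, ⋃ k,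
      {p : E3 | ∃ x ∈ B j k, ∃ s : ℝ, p = x.1 • e₁ j + x.2 • e₂ j + s • u j}) {σ : ℝ}
    (hσ : σ ∈ Icc (0:ℝ) 1) :
    1 ≤ ENNReal.ofReal (d * σ ^ 3) + ENNReal.ofReal (3 * (1 - σ)) *
      ∑ j, ∑ k, volume (B j k) / volume (frProj (e₁ j) (e₂ j) '' K) := by
  have hcov' : K ⊆ ⋃ j, {p | frProj (e₁ j) (e₂ j) p ∈ ⋃ k, B j k} := by
    intro p hp
    obtain ⟨j, hj⟩ := mem_iUnion.mp (hcov hp)
    obtain ⟨k, hk⟩ := mem_iUnion.mp hj
    exact mem_iUnion.mpr ⟨j, mem_iUnion.mpr ⟨k, cyl_subset_fr (ho j) _ hk⟩⟩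
  have h := cover_bound_fr hc hv hi e₁ e₂ u ho (fun j => ⋃ k, B j k)
    (fun j => MeasurableSet.iUnion (hB j)) hcov' hσ
  refine h.trans ?_
  gcongr with j _
  calc volume (⋃ k, B j k) / volume (frProj (e₁ j) (e₂ j) '' K)
      ≤ (∑ k, volume (B j k)) / volume (frProj (e₁ j) (e₂ j) '' K) := by
        gcongr
        exact measure_iUnion_fintype_le _ _
    _ = ∑ k, volume (B j k) / volume (frProj (e₁ j) (e₂ j) '' K) := by
        simp only [div_eq_mul_inv, Finset.sum_mul]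

theorem few_dir_explicit_fr {K : Set E3} (hc : IsCompact K) (hv : Convex ℝ K)
    (hi : (interior K).Nonempty)
    {d : ℕ} (e₁ e₂ u : Fin d → E3) (ho : ∀ j, Orthonormal ℝ ![e₁ j, e₂ j, u j]) (n : Fin d → ℕ)
    (B : ∀ j, Fin (n j) → Set (ℝ × ℝ)) (hB : ∀ j k, MeasurableSet (B j k))
    (hcov : K ⊆ ⋃ j, ⋃ k,
      {p : E3 | ∃ x ∈ B j k, ∃ s : ℝ, p = x.1 • e₁ j + x.2 • e₂ j + s • u j}) :
    ENNReal.ofReal (1 / 3 + 2 / (9 * √(3 * d))) ≤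
      ∑ j, ∑ k, volume (B j k) / volume (frProj (e₁ j) (e₂ j) '' K) := by
  have hd : 1 ≤ d := by
    by_contra hcon
    have hd0 : d = 0 := by omega
    subst hd0
    obtain ⟨p, hp⟩ := hi
    have := hcov (interior_subset hp)
    simp at this
  have hdR : (1:ℝ) ≤ d := by exact_mod_cast hd
  set q : ℝ := 1 / √(3 * d) with hq
  have hs : 0 < √(3 * (d:ℝ)) := Real.sqrt_pos.mpr (by positivity)
  have hs1 : 1 < √(3 * (d:ℝ)) := by
    rw [Real.lt_sqrt (by norm_num)]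
    nlinarith
  have hq0 : 0 < q := by positivity
  have hq1 : q < 1 := by
    rw [hq, div_lt_one hs]
    exact hs1
  have hq2 : d * q ^ 2 = 1 / 3 := by
    rw [hq, div_pow, Real.sq_sqrt (by positivity)]
    field_simp
  have h := few_dir_fr hc hv hi e₁ e₂ u ho n B hB hcov (σ := q) ⟨hq0.le, hq1.le⟩
  have h2 := ennreal_solve (by positivity) (by linarith : 0 < 3 * (1 - q)) h
  refine le_trans (ENNReal.ofReal_le_ofReal ?_) h2
  have e1 : (2:ℝ) / (9 * √(3 * d)) = 2 * q / 9 := by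
    rw [hq]; field_simp
  have e2 : (d:ℝ) * q ^ 3 = q / 3 := by
    calc (d:ℝ) * q ^ 3 = (d * q ^ 2) * q := by ring
      _ = q / 3 := by rw [hq2]; ring
  rw [e1, e2, le_div_iff₀ (by linarith)]
  nlinarith [sq_nonneg q]

theorem two_dir_fr {K : Set E3} (hc : IsCompact K) (hv : Convex ℝ K) (hi : (interior K).Nonempty)
    {e₁ e₂ u f₁ f₂ w : E3} (ho₁ : Orthonormal ℝ ![e₁, e₂, u]) (ho₂ : Orthonormal ℝ ![f₁, f₂, w])
    {a b : ℕ} (B₁ : Fin a → Set (ℝ × ℝ)) (B₂ : Fin b → Set (ℝ × ℝ))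
    (hB₁ : ∀ j, MeasurableSet (B₁ j)) (hB₂ : ∀ k, MeasurableSet (B₂ k))
    (hcov : K ⊆ (⋃ j, {p : E3 | ∃ x ∈ B₁ j, ∃ s : ℝ, p = x.1 • e₁ + x.2 • e₂ + s • u}) ∪
      (⋃ k, {p : E3 | ∃ x ∈ B₂ k, ∃ s : ℝ, p = x.1 • f₁ + x.2 • f₂ + s • w})) :
    1 / 2 ≤ (∑ j, volume (B₁ j)) / volume (frProj e₁ e₂ '' K)
      + (∑ k, volume (B₂ k)) / volume (frProj f₁ f₂ '' K) := by
  have hVpos : 0 < volume K := Measure.measure_pos_of_nonempty_interior _ hi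
  have hσ : (1 / 2 : ℝ) ∈ Icc (0:ℝ) 1 := ⟨by norm_num, by norm_num⟩
  have c1 := cyl_bound_fr hc hv hi ho₁ (MeasurableSet.iUnion hB₁) hσ
  have c2 := cyl_bound_fr hc hv hi ho₂ (MeasurableSet.iUnion hB₂) hσ
  set A₁ := volume (frProj e₁ e₂ '' K)
  set A₂ := volume (frProj f₁ f₂ '' K)
  have hsub : K ⊆ (K ∩ {p | frProj e₁ e₂ p ∈ ⋃ j, B₁ j}) ∪
      (K ∩ {p | frProj f₁ f₂ p ∈ ⋃ k, B₂ k}) := by
    intro p hp
    rcases hcov hp with h | h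
    · obtain ⟨j, hj⟩ := mem_iUnion.mp h
      exact Or.inl ⟨hp, mem_iUnion.mpr ⟨j, cyl_subset_fr ho₁ _ hj⟩⟩
    · obtain ⟨k, hk⟩ := mem_iUnion.mp h
      exact Or.inr ⟨hp, mem_iUnion.mpr ⟨k, cyl_subset_fr ho₂ _ hk⟩⟩
  have h1 : volume K * 1 ≤ volume K * (ENNReal.ofReal (1 / 4) + ENNReal.ofReal (3 / 2) *
      (volume (⋃ j, B₁ j) / A₁ + volume (⋃ k, B₂ k) / A₂)) := by
    rw [mul_one]
    refine (measure_mono hsub).trans ((measure_union_le _ _).trans ((add_le_add c1 c2).trans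
      (le_of_eq ?_)))
    rw [← mul_add]
    congr 1
    have e1 : ENNReal.ofReal ((1 / 2 : ℝ) ^ 3) + ENNReal.ofReal ((1 / 2 : ℝ) ^ 3)
        = ENNReal.ofReal (1 / 4) := by
      rw [← ENNReal.ofReal_add (by norm_num) (by norm_num)]
      norm_num
    have e2 : (3 * (1 - 1 / 2) : ℝ) = 3 / 2 := by norm_num
    rw [e2, ← e1, mul_add]
    ring
  have h2 := (ENNReal.mul_le_mul_iff_right hVpos.ne' hc.measure_lt_top.ne).mp h1
  have h3 := ennreal_solve (by norm_num) (by norm_num) h2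
  have e3 : ENNReal.ofReal ((1 - 1 / 4) / (3 / 2)) = 1 / 2 := by
    have : ((1 - 1 / 4) / (3 / 2) : ℝ) = 1 / 2 := by norm_num
    rw [this, ENNReal.ofReal_div_of_pos (by norm_num)]
    simp
  rw [e3] at h3
  refine h3.trans ?_
  gcongr
  · exact measure_iUnion_fintype_le _ _
  · exact measure_iUnion_fintype_le _ _

/-- passage from the relative form to the absolute form -/
lemma abs_of_rel {x₁ x₂ A₁ A₂ m : ENNReal} (hA₁ : A₁ ≠ 0) (hA₁' : A₁ ≠ ⊤) (hA₂ : A₂ ≠ 0)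
    (hA₂' : A₂ ≠ ⊤) (hm₁ : m ≤ A₁) (hm₂ : m ≤ A₂) (h : 1 / 2 ≤ x₁ / A₁ + x₂ / A₂) :
    1 / 2 * m ≤ x₁ + x₂ := by
  calc 1 / 2 * m ≤ (x₁ / A₁ + x₂ / A₂) * m := by gcongr
    _ = x₁ / A₁ * m + x₂ / A₂ * m := add_mul _ _ _
    _ ≤ x₁ / A₁ * A₁ + x₂ / A₂ * A₂ := by gcongr
    _ = x₁ + x₂ := by rw [ENNReal.div_mul_cancel hA₁ hA₁', ENNReal.div_mul_cancel hA₂ hA₂']

end Vale.Agent.Lib.P243
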