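import Vale.Agent.Lib.P243.Reduction

open MeasureTheory Set

namespace Vale.Agent.Lib.P243

section frame

variable {e₁ e₂ u : E3} (ho : Orthonormal ℝ ![e₁, e₂, u])

include ho

lemma fr_norm : inner ℝ e₁ e₁ = (1:ℝ) ∧ inner ℝ e₂ e₂ = (1:ℝ) ∧ inner ℝ u u = (1:ℝ) := by
  have h0 := ho.1 0
  have h1 := ho.1 1
  have h2 := ho.1 2
  simp at h0 h1 h2
  refine ⟨?_, ?_, ?_⟩ <;> rw [real_inner_self_eq_norm_sq] <;> simp [*]

lemma fr_orth : inner ℝ e₁ e₂ = (0:ℝ) ∧ inner ℝ e₁ u = (0:ℝ) ∧ inner ℝ e₂ u = (0:ℝ) := by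
  have h01 := ho.2 (show (0 : Fin 3) ≠ 1 by decide)
  have h02 := ho.2 (show (0 : Fin 3) ≠ 2 by decide)
  have h12 := ho.2 (show (1 : Fin 3) ≠ 2 by decide)
  simp at h01 h02 h12
  exact ⟨h01, h02, h12⟩

end frame

/-- the linear map `((x, y), s) ↦ x e₁ + y e₂ + s u` -/
noncomputable def frMap (e₁ e₂ u : E3) : ((ℝ × ℝ) × ℝ) →ₗ[ℝ] E3 where
  toFun p := p.1.1 • e₁ + p.1.2 • e₂ + p.2 • u
  map_add' p q := by
    simp only [Prod.fst_add, Prod.snd_add, add_smul]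
    abel
  map_smul' c p := by
    simp only [Prod.smul_fst, Prod.smul_snd, smul_eq_mul, RingHom.id_apply, smul_add, mul_smul]

lemma frMap_apply (e₁ e₂ u : E3) (p : (ℝ × ℝ) × ℝ) :
    frMap e₁ e₂ u p = p.1.1 • e₁ + p.1.2 • e₂ + p.2 • u := rfl

lemma frMap_inner {e₁ e₂ u : E3} (ho : Orthonormal ℝ ![e₁, e₂, u]) (p : (ℝ × ℝ) × ℝ) :
    inner ℝ e₁ (frMap e₁ e₂ u p) = p.1.1 ∧ inner ℝ e₂ (frMap e₁ e₂ u p) = p.1.2 ∧
      inner ℝ u (frMap e₁ e₂ u p) = p.2 := by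
  obtain ⟨n1, n2, n3⟩ := fr_norm ho
  obtain ⟨o1, o2, o3⟩ := fr_orth ho
  have o1' : inner ℝ e₂ e₁ = (0:ℝ) := by rw [real_inner_comm]; exact o1
  have o2' : inner ℝ u e₁ = (0:ℝ) := by rw [real_inner_comm]; exact o2
  have o3' : inner ℝ u e₂ = (0:ℝ) := by rw [real_inner_comm]; exact o3
  rw [frMap_apply]
  simp only [inner_add_right, inner_smul_right, n1, n2, n3, o1, o2, o3, o1', o2', o3']
  simp

lemma frMap_injective {e₁ e₂ u : E3} (ho : Orthonormal ℝ ![e₁, e₂, u]) :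
    Function.Injective (frMap e₁ e₂ u) := by
  intro p q h
  obtain ⟨a1, a2, a3⟩ := frMap_inner ho p
  obtain ⟨b1, b2, b3⟩ := frMap_inner ho q
  rw [h] at a1 a2 a3
  ext
  · rw [← a1, b1]
  · rw [← a2, b2]
  · rw [← a3, b3]

/-- linear coordinates adapted to an orthonormal frame -/
noncomputable def frEquiv {e₁ e₂ u : E3} (ho : Orthonormal ℝ ![e₁, e₂, u]) :
    ((ℝ × ℝ) × ℝ) ≃ₗ[ℝ] E3 :=
  LinearEquiv.ofInjectiveOfFinrankEq (frMap e₁ e₂ u) (frMap_injective ho) (by simp)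

lemma frEquiv_apply {e₁ e₂ u : E3} (ho : Orthonormal ℝ ![e₁, e₂, u]) (p : (ℝ × ℝ) × ℝ) :
    frEquiv ho p = frMap e₁ e₂ u p := rfl

/-- coordinates of the orthogonal projection along `u` in the frame -/
noncomputable def frProj (e₁ e₂ : E3) (p : E3) : ℝ × ℝ := (inner ℝ e₁ p, inner ℝ e₂ p)

lemma frProj_equiv {e₁ e₂ u : E3} (ho : Orthonormal ℝ ![e₁, e₂, u]) (p : (ℝ × ℝ) × ℝ) :
    frProj e₁ e₂ (frEquiv ho p) = p.1 := by
  obtain ⟨a1, a2, _⟩ := frMap_inner ho p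
  rw [frEquiv_apply]
  unfold frProj
  rw [a1, a2]

lemma fr_fst_image {e₁ e₂ u : E3} (ho : Orthonormal ℝ ![e₁, e₂, u]) (K : Set E3) :
    Prod.fst '' (frEquiv ho ⁻¹' K) = frProj e₁ e₂ '' K := by
  ext x
  constructor
  · rintro ⟨p, hp, rfl⟩
    exact ⟨frEquiv ho p, hp, frProj_equiv ho p⟩
  · rintro ⟨q, hq, rfl⟩
    refine ⟨(frEquiv ho).symm q, ?_, ?_⟩
    · simp only [mem_preimage, LinearEquiv.apply_symm_apply]
      exact hq
    · rw [← frProj_equiv ho, LinearEquiv.apply_symm_apply]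

lemma fr_shadow_pos {K : Set E3} (hi : (interior K).Nonempty) {e₁ e₂ u : E3}
    (ho : Orthonormal ℝ ![e₁, e₂, u]) : 0 < volume (frProj e₁ e₂ '' K) := by
  rw [← fr_fst_image ho]
  have hcont : Continuous (frEquiv ho) := (frEquiv ho).toContinuousLinearEquiv.continuous
  have h1 : IsOpen (Prod.fst '' (frEquiv ho ⁻¹' interior K)) :=
    isOpenMap_fst _ (isOpen_interior.preimage hcont)
  have h2 : (Prod.fst '' (frEquiv ho ⁻¹' interior K)).Nonempty := by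
    obtain ⟨q, hq⟩ := hi
    exact ⟨_, (frEquiv ho).symm q, by simpa using hq, rfl⟩
  exact (h1.measure_pos volume h2).trans_le
    (measure_mono (image_mono (preimage_mono interior_subset)))

lemma fr_shadow_compact {K : Set E3} (hc : IsCompact K) (e₁ e₂ : E3) :
    IsCompact (frProj e₁ e₂ '' K) := by
  apply hc.image
  unfold frProj
  fun_prop

theorem cyl_bound_fr {K : Set E3} (hc : IsCompact K) (hv : Convex ℝ K)
    (hi : (interior K).Nonempty) {e₁ e₂ u : E3} (ho : Orthonormal ℝ ![e₁, e₂, u])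
    {B : Set (ℝ × ℝ)} (hB : MeasurableSet B) {σ : ℝ} (hσ : σ ∈ Icc (0:ℝ) 1) :
    volume (K ∩ {p | frProj e₁ e₂ p ∈ B}) ≤
      volume K * (ENNReal.ofReal (σ ^ 3) + ENNReal.ofReal (3 * (1 - σ)) *
        (volume B / volume (frProj e₁ e₂ '' K))) := by
  set Φ := frEquiv ho with hΦ
  have i2 : (volume : Measure ((ℝ × ℝ) × ℝ)).IsAddHaarMeasure := by
    rw [Measure.volume_eq_prod]; infer_instance
  obtain ⟨k1, hk1, h1⟩ := haar_scale (volume : Measure ((ℝ × ℝ) × ℝ)) (volume : Measure E3) Φ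
  have hKc : IsCompact (Φ ⁻¹' K) :=
    Φ.toContinuousLinearEquiv.toHomeomorph.isCompact_preimage.mpr hc
  have hKv : Convex ℝ (Φ ⁻¹' K) := hv.linear_preimage Φ.toLinearMap
  have hfst : Prod.fst '' (Φ ⁻¹' K) = frProj e₁ e₂ '' K := fr_fst_image ho K
  have hcyl : Φ ⁻¹' K ∩ Prod.fst ⁻¹' B = Φ ⁻¹' (K ∩ {p | frProj e₁ e₂ p ∈ B}) := by
    ext p
    simp only [mem_inter_iff, mem_preimage, mem_ofPred_eq, hΦ, frProj_equiv ho]
  have hVpos : 0 < (volume K).toReal :=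
    ENNReal.toReal_pos (Measure.measure_pos_of_nonempty_interior _ hi).ne' hc.measure_lt_top.ne
  have hshc : IsCompact (frProj e₁ e₂ '' K) := fr_shadow_compact hc e₁ e₂
  have hApos : 0 < (volume (frProj e₁ e₂ '' K)).toReal :=
    ENNReal.toReal_pos (fr_shadow_pos hi ho).ne' hshc.measure_lt_top.ne
  have hVe : volume K = ENNReal.ofReal (volume K).toReal :=
    (ENNReal.ofReal_toReal hc.measure_lt_top.ne).symm
  have hAe : volume (frProj e₁ e₂ '' K) = ENNReal.ofReal (volume (frProj e₁ e₂ '' K)).toReal :=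
    (ENNReal.ofReal_toReal hshc.measure_lt_top.ne).symm
  set V := (volume K).toReal with hV
  set A := (volume (frProj e₁ e₂ '' K)).toReal with hA
  have hV' : (volume (Φ ⁻¹' K)).toReal = k1 * V := by
    rw [h1, ENNReal.toReal_mul, ENNReal.toReal_ofReal hk1.le]
  have hA' : (volume (Prod.fst '' (Φ ⁻¹' K))).toReal = A := by
    rw [hfst]
  have hcore := core hKc hKv (by rw [hA']; positivity) (by rw [hV']; positivity) hB hσ
  rw [hcyl, h1, hV', hA'] at hcore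
  have hσ1 : 0 ≤ 1 - σ := by linarith [hσ.2]
  have hσ0 := hσ.1
  have e1 : ENNReal.ofReal (3 * (1 - σ) * (k1 * V) / A) * volume B
      + ENNReal.ofReal (σ ^ 3 * (k1 * V))
      = ENNReal.ofReal k1 * (ENNReal.ofReal V * (ENNReal.ofReal (σ ^ 3)
        + ENNReal.ofReal (3 * (1 - σ)) * (volume B / ENNReal.ofReal A))) := by
    have a1 : ENNReal.ofReal (3 * (1 - σ) * (k1 * V) / A) * volume B
        = ENNReal.ofReal k1 * (ENNReal.ofReal V * (ENNReal.ofReal (3 * (1 - σ))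
          * (volume B / ENNReal.ofReal A))) := by
      rw [ENNReal.div_eq_inv_mul, ← ENNReal.ofReal_inv_of_pos hApos,
        ← mul_assoc (ENNReal.ofReal (3 * (1 - σ))), ← mul_assoc (ENNReal.ofReal V),
        ← mul_assoc (ENNReal.ofReal k1),
        ← ENNReal.ofReal_mul (by positivity), ← ENNReal.ofReal_mul hVpos.le,
        ← ENNReal.ofReal_mul hk1.le]
      congr 2
      field_simp
    have a2 : ENNReal.ofReal (σ ^ 3 * (k1 * V))
        = ENNReal.ofReal k1 * (ENNReal.ofReal V * ENNReal.ofReal (σ ^ 3)) := by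
      rw [← ENNReal.ofReal_mul hVpos.le, ← ENNReal.ofReal_mul hk1.le]
      congr 1
      ring
    rw [a1, a2, mul_add (ENNReal.ofReal V), mul_add, add_comm]
  rw [e1] at hcore
  rw [hVe, hAe]
  exact (ENNReal.mul_le_mul_iff_right (ENNReal.ofReal_pos.mpr hk1).ne' ENNReal.ofReal_ne_top).mp hcore


end Vale.Agent.Lib.P243
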