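import Vale.Agent.Lib.P243.Core

open MeasureTheory Set

namespace Vale.Agent.Lib.P243

lemma haar_scale {X Y : Type*} [NormedAddCommGroup X] [NormedSpace ℝ X] [FiniteDimensional ℝ X]
    [MeasurableSpace X] [BorelSpace X]
    [NormedAddCommGroup Y] [NormedSpace ℝ Y] [FiniteDimensional ℝ Y] [MeasurableSpace Y] [BorelSpace Y]
    (μ : Measure X) [μ.IsAddHaarMeasure] (ν : Measure Y) [ν.IsAddHaarMeasure] (e : X ≃ₗ[ℝ] Y) :
    ∃ k : ℝ, 0 < k ∧ ∀ S : Set Y, μ (e ⁻¹' S) = ENNReal.ofReal k * ν S := by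
  have h1 : (μ.map e).IsAddHaarMeasure := e.toContinuousLinearEquiv.isAddHaarMeasure_map μ
  have h2 : μ.map e = Measure.addHaarScalarFactor (μ.map e) ν • ν :=
    Measure.isAddLeftInvariant_eq_smul _ _
  refine ⟨(Measure.addHaarScalarFactor (μ.map e) ν : ℝ), ?_, ?_⟩
  · exact_mod_cast Measure.addHaarScalarFactor_pos_of_isAddHaarMeasure (μ.map e) ν
  · intro S
    have h3 : (μ.map e) S = μ (e ⁻¹' S) :=
      e.toContinuousLinearEquiv.toHomeomorph.toMeasurableEquiv.map_apply S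
    rw [← h3]
    have h4 := congrArg (fun m : Measure Y => m S) h2
    simp only [Measure.smul_apply] at h4
    rw [h4]
    simp [ENNReal.smul_def]


abbrev E3 := EuclideanSpace ℝ (Fin 3)

end Vale.Agent.Lib.P243
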